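import Mathlib

/-! Definitions for the Boltzmann-Grad limit, over a Euclidean space `E`. -/

open MeasureTheory Filter Topology Set
open scoped InnerProductSpace

namespace Vale.Agent.P119G

variable {E : Type} [NormedAddCommGroup E] [InnerProductSpace ℝ E] [CompleteSpace E]
  [FiniteDimensional ℝ E] [MeasurableSpace E] [BorelSpace E]

/-- The force on each particle. -/
noncomputable def force (Φ : E → ℝ) (ε : ℝ) {n : ℕ} (x : Fin n → E) : Fin n → E :=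
  fun i => -(ε⁻¹ • ∑ j ∈ Finset.univ.erase i, gradient Φ (ε⁻¹ • (x i - x j)))

/-- Global solutions of the equations of Newton (distinct positions if `Φ` is singular). -/
def Newton (Φ : E → ℝ) (ε : ℝ) {n : ℕ} (γ : ℝ → Fin n → E × E) : Prop :=
  (ContDiff ℝ 2 Φ ∨ ∀ t i j, i ≠ j → (γ t i).1 ≠ (γ t j).1) ∧
    ∀ t i, HasDerivAt (fun s => (γ s i).1) (γ t i).2 t ∧
      HasDerivAt (fun s => (γ s i).2) (force Φ ε (fun j => (γ t j).1) i) t

/-- Configurations whose particles are at mutual distance more than `ε`. -/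
def excl (E : Type) [NormedAddCommGroup E] (ε : ℝ) (n : ℕ) : Set (Fin n → E × E) :=
  {z | ∀ i j, i ≠ j → ε < ‖(z i).1 - (z j).1‖}

/-- A measurable flow solving the equations of Newton from almost every point of `excl`. -/
def IsFlow (Φ : E → ℝ) (ε : ℝ) {n : ℕ} (Fl : ℝ → (Fin n → E × E) → Fin n → E × E) : Prop :=
  (∀ t, Measurable (Fl t)) ∧
    ∀ᵐ z ∂(volume.restrict (excl E ε n)), Fl 0 z = z ∧ Newton Φ ε (fun t => Fl t z)

/-- The tensor power of a one particle density. -/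
noncomputable def tens (f : E × E → ℝ) {n : ℕ} (z : Fin n → E × E) : ℝ := ∏ i, f (z i)

/-- The grand canonical normalising constant with activity `ε⁻¹ ^ 2`. -/
noncomputable def Zgc (f₀ : E × E → ℝ) (ε : ℝ) : ℝ :=
  ∑' n : ℕ, (ε⁻¹ ^ 2) ^ n / (n.factorial : ℝ) * ∫ z in excl E ε n, tens f₀ z

/-- The rescaled factorial marginal of order `s` at time `t`, tested against `φ`. -/
noncomputable def marg (f₀ : E × E → ℝ) (ε : ℝ)
    (Fl : ∀ n : ℕ, ℝ → (Fin n → E × E) → Fin n → E × E) (s : ℕ) (t : ℝ)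
    (φ : (Fin s → E × E) → ℝ) : ℝ :=
  ((ε⁻¹ ^ 2) ^ s)⁻¹ * ((Zgc f₀ ε)⁻¹ * ∑' n : ℕ, (ε⁻¹ ^ 2) ^ n / (n.factorial : ℝ) *
    ∫ z in excl E ε n, (∑ e : Fin s ↪ Fin n, φ (fun k => Fl n t z (e k))) * tens f₀ z)

/-- The freely transported Gaussian. -/
noncomputable def gau (c a b t : ℝ) (z : E × E) : ℝ :=
  c * Real.exp (-(a * ‖z.1 - t • z.2‖ ^ 2 + b * ‖z.2‖ ^ 2))

/-- Sum of a pair function over all ordered pairs of distinct labels. -/
noncomputable def pairSum (Ψ : E → ℝ) {n : ℕ} (x : Fin n → E) : ℝ :=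
  ∑ i, ∑ j ∈ Finset.univ.erase i, Ψ (x i - x j)

/-- Stability of a pair function. -/
def Stable (Ψ : E → ℝ) : Prop :=
  ∃ B : ℝ, ∀ (n : ℕ) (x : Fin n → E), Function.Injective x → -(B * n) ≤ pairSum Ψ x

/-- Stable radial potentials of range one, smooth or blowing up monotonically at the origin. -/
def IsAdm (Φ : E → ℝ) : Prop :=
  (∀ x y, ‖x‖ = ‖y‖ → Φ x = Φ y) ∧ ContDiffOn ℝ 2 Φ {0}ᶜ ∧ (∀ x, 1 ≤ ‖x‖ → Φ x = 0) ∧
    (ContDiff ℝ 2 Φ ∨
      (Tendsto Φ (𝓝[≠] 0) atTop ∧ ∀ᶠ x in 𝓝[≠] (0 : E), ⟪x, gradient Φ x⟫_ℝ ≤ 0)) ∧ Stable Φ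

/-- Repulsive potentials. -/
def Repulsive (Φ : E → ℝ) : Prop := ∀ x, x ≠ 0 → ⟪x, gradient Φ x⟫_ℝ ≤ 0

/-- Superstable potentials: still stable after subtracting a positive step of range one. -/
def Superstable (Φ : E → ℝ) : Prop :=
  ∃ A : ℝ, 0 < A ∧ Stable (fun x => Φ x - if ‖x‖ ≤ 1 then A else 0)

/-- Potentials that stay stable after subtracting a small multiple of the virial. -/
def VirialStable (Φ : E → ℝ) : Prop :=
  ∃ η : ℝ, 0 < η ∧ Stable (fun x => Φ x - η * ⟪x, gradient Φ x⟫_ℝ)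

/-- `V'` is the outgoing velocity of the relative motion entering along `ρ + t V`. -/
def Scat (Φ : E → ℝ) (V ρ V' : E) : Prop :=
  ∃ r r' : ℝ → E, (ContDiff ℝ 2 Φ ∨ ∀ t, r t ≠ 0) ∧
    (∀ t, HasDerivAt r (r' t) t ∧ HasDerivAt r' (-((2 : ℝ) • gradient Φ (r t))) t) ∧
    (∀ᶠ t in atBot, r t = ρ + t • V) ∧ ∀ᶠ t in atTop, 1 ≤ ‖r t‖ ∧ r' t = V'

/-- `S V ρ` is the outgoing velocity for almost every impact parameter `ρ` in the unit disc
of the plane orthogonal to `V`. -/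
def IsScatMap (Φ : E → ℝ) (S : E → E → E) : Prop :=
  ∀ V : E, V ≠ 0 → ∀ᵐ ρ : (Submodule.span ℝ {V})ᗮ, ‖ρ‖ < 1 → Scat Φ V ρ (S V ρ)

/-- The collision operator of the scattering map `S`. -/
noncomputable def Qcol (S : E → E → E) (f : E × E → ℝ) (x v : E) : ℝ :=
  ∫ w : E, ∫ ρ in {ρ : (Submodule.span ℝ {v - w})ᗮ | ‖ρ‖ < 1},
    ‖v - w‖ * (f (x, (1 / 2 : ℝ) • (v + w + S (v - w) ρ)) *
      f (x, (1 / 2 : ℝ) • (v + w - S (v - w) ρ)) - f (x, v) * f (x, w))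

/-- `f` is a nonnegative probability density solution of the Boltzmann equation on the interval
from `0` to `T` (derivative along free transport), with datum `f₀` and a Gaussian bound. -/
def Regular (S : E → E → E) (β : ℝ) (f₀ : E × E → ℝ) (T : ℝ) (f : ℝ → E × E → ℝ) : Prop :=
  f 0 = f₀ ∧ (∀ t ∈ Icc 0 T, (∀ z, 0 ≤ f t z) ∧ ∫ z, f t z = 1) ∧
    (∀ t ∈ Icc 0 T, ∀ x v : E, HasDerivWithinAt (fun r => f r (x + r • v, v))
      (Qcol S (f t) (x + t • v) v) (Icc 0 T) t) ∧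
    ∃ M : ℝ, ∀ t ∈ Icc 0 T, ∀ x v : E, Real.exp (2 * β * ‖v‖ ^ 2) * f t (x, v) ≤ M

/-- Convergence of all rescaled factorial marginals to the tensor powers of `f`, in `L¹`,
uniformly on the interval from `0` to `T`, at rate `√ε`. -/
def Chaos (Φ : E → ℝ) (f₀ : E × E → ℝ) (T : ℝ) (f : ℝ → E × E → ℝ) : Prop :=
  ∀ s : ℕ, 1 ≤ s → ∃ C : ℝ, ∀ ε : ℝ, 0 < ε → ε < 1 →
    ∀ Fl : ∀ n : ℕ, ℝ → (Fin n → E × E) → Fin n → E × E, (∀ n, IsFlow Φ ε (Fl n)) →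
    ∀ t ∈ Icc 0 T,
      (∀ φ : (Fin s → E × E) → ℝ, Measurable φ → (∀ y, |φ y| ≤ 1) →
        |marg f₀ ε Fl s t φ - ∫ y, φ y * tens (f t) y| ≤ C * Real.sqrt ε) ∧
      ∀ F : (Fin s → E × E) → ℝ, Integrable F →
        (∀ φ : (Fin s → E × E) → ℝ, Measurable φ → (∀ y, |φ y| ≤ 1) →
          ∫ y, φ y * F y = marg f₀ ε Fl s t φ) →
        ∫ y, |F y - tens (f t) y| ≤ C * Real.sqrt ε

end Vale.Agent.P119G
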