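import Vale.Agent.P119G.Defs

/-! Data close to a Gaussian. -/

open MeasureTheory Filter Topology Set

namespace Vale.Agent.P119G

variable {E : Type} [NormedAddCommGroup E] [InnerProductSpace ℝ E] [CompleteSpace E]
  [FiniteDimensional ℝ E] [MeasurableSpace E] [BorelSpace E]

/-- Probability densities within relative distance `δ` of the Gaussian. -/
def Near (c a b δ : ℝ) (g : E × E → ℝ) : Prop :=
  0 ≤ δ ∧ δ ≤ 1 / 2 ∧ Measurable g ∧ ∫ z, g z = 1 ∧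
    ∀ z, |g z - gau c a b 0 z| ≤ δ * gau c a b 0 z

/-- A regular kinetic interval with the explicit Gaussian bound `M`. -/
def RegularB (S : E → E → E) (β : ℝ) (f₀ : E × E → ℝ) (T : ℝ) (f : ℝ → E × E → ℝ)
    (M : ℝ) : Prop :=
  f 0 = f₀ ∧ (∀ t ∈ Icc 0 T, (∀ z, 0 ≤ f t z) ∧ ∫ z, f t z = 1) ∧
    (∀ t ∈ Icc 0 T, ∀ x v : E, HasDerivWithinAt (fun r => f r (x + r • v, v))
      (Qcol S (f t) (x + t • v) v) (Icc 0 T) t) ∧
    ∀ t ∈ Icc 0 T, ∀ x v : E, Real.exp (2 * β * ‖v‖ ^ 2) * f t (x, v) ≤ M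

/-- The marginal of order `s` is within `C √ε + D` of the tensor power of `f` in `L¹`. -/
def Close (Φ : E → ℝ) (f₀ : E × E → ℝ) (T : ℝ) (f : ℝ → E × E → ℝ) (s : ℕ) (C D : ℝ) : Prop :=
  ∀ ε : ℝ, 0 < ε → ε < 1 →
    ∀ Fl : ∀ n : ℕ, ℝ → (Fin n → E × E) → Fin n → E × E, (∀ n, IsFlow Φ ε (Fl n)) →
    ∀ t ∈ Icc 0 T,
      (∀ φ : (Fin s → E × E) → ℝ, Measurable φ → (∀ y, |φ y| ≤ 1) →
        |marg f₀ ε Fl s t φ - ∫ y, φ y * tens (f t) y| ≤ C * Real.sqrt ε + D) ∧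
      ∀ F : (Fin s → E × E) → ℝ, Integrable F →
        (∀ φ : (Fin s → E × E) → ℝ, Measurable φ → (∀ y, |φ y| ≤ 1) →
          ∫ y, φ y * F y = marg f₀ ε Fl s t φ) →
        ∫ y, |F y - tens (f t) y| ≤ C * Real.sqrt ε + D

end Vale.Agent.P119G
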